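import Crest.Agent.S0328Aux.Estimate

/-! The one-piece lemma with its choice of mesh. -/

set_option autoImplicit false
open MeasureTheory
open scoped ENNReal

namespace Crest.Agent.S0328Aux
open Crest.Agent.S0324Aux

theorem piece_lemma (e a b p₀ : E3) (he : ‖e‖ = 1)
    (ha : inner ℝ a e = 0) (hb : inner ℝ b e = 0)
    (hab : LinearIndependent ℝ ![a, b]) (L : ℝ) (hL : 0 < L) (α β : ℝ) (hαβ : α < β)
    (R : ℝ → ℝ) (hR : ContinuousOn R (Set.Icc α β)) (hR0 : ∀ t ∈ Set.Icc α β, 0 ≤ R t)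
    (w : ℝ → E3) (hw : ∀ t ∈ Set.Icc α β, inner ℝ (w t) e = 0)
    (lam : ℝ → ℝ) (hlam : ContinuousOn lam (Set.Icc α β))
    (hw' : ∀ t ∈ Set.Icc α β, HasDerivWithinAt w (lam t • (a + t • b)) (Set.Icc α β) t)
    (η : ℝ) (hη : 0 < η) :
    ∃ δ : ℝ, 0 < δ ∧ ∀ t₀ t₁ c : ℝ, α ≤ t₀ → t₀ < t₁ → t₁ ≤ β → t₁ - t₀ ≤ δ → t₀ ≤ c → c ≤ t₁ →
      (∃ p q r : E3,
        (inner ℝ p (e + w c) = 0 ∧ inner ℝ q (e + w c) = 0 ∧ inner ℝ r (e + w c) = 0) ∧
        AffineIndependent ℝ ![p, q, r] ∧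
        (∀ x ∈ piece e a b p₀ L R w t₀ t₁,
          projAlong (e + w c) x ∈ convexHull ℝ ({p, q, r} : Set E3)) ∧
        |(μHE[2] (convexHull ℝ ({p, q, r} : Set E3))).toReal - Real.sqrt (gram2 a b) *
          ∫ τ in t₀..t₁, R τ ^ 2 / (2 * Real.sqrt (1 + ‖w τ‖ ^ 2))| ≤ η * (t₁ - t₀)) ∧
      |(μHE[2] (projAlong (e + w c) '' piece e a b p₀ L R w t₀ t₁)).toReal - Real.sqrt (gram2 a b) *
          ∫ τ in t₀..t₁, R τ ^ 2 / (2 * Real.sqrt (1 + ‖w τ‖ ^ 2))| ≤ η * (t₁ - t₀) := by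
  have hg : 0 < gram2 a b := gram2_pos_of_linearIndependent hab
  set κ := Real.sqrt (gram2 a b) with hκdef
  have hκ : 0 < κ := Real.sqrt_pos.mpr hg
  set f : ℝ → ℝ := fun τ => R τ ^ 2 / (2 * Real.sqrt (1 + ‖w τ‖ ^ 2)) with hfdef
  have hwc : ContinuousOn w (Set.Icc α β) := fun x hx => (hw' x hx).continuousWithinAt
  have hf : ContinuousOn f (Set.Icc α β) := by
    apply ContinuousOn.div (hR.pow 2)
    · exact continuousOn_const.mul
        (Real.continuous_sqrt.comp_continuousOn (continuousOn_const.add (hwc.norm.pow 2)))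
    · intro x _
      have : 0 < Real.sqrt (1 + ‖w x‖ ^ 2) := Real.sqrt_pos.mpr (by positivity)
      positivity
  obtain ⟨Λ, hΛ⟩ := isCompact_Icc.exists_bound_of_continuousOn hlam
  obtain ⟨M, hM⟩ := isCompact_Icc.exists_bound_of_continuousOn hR
  simp only [Real.norm_eq_abs] at hΛ hM
  have hαmem : α ∈ Set.Icc α β := ⟨le_rfl, hαβ.le⟩
  have hΛ0 : 0 ≤ Λ := le_trans (abs_nonneg _) (hΛ α hαmem)
  have hM0 : 0 ≤ M := le_trans (abs_nonneg _) (hM α hαmem)
  set ε := η / κ with hεdef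
  have hε : 0 < ε := div_pos hη hκ
  have hκε : κ * ε = η := by rw [hεdef]; field_simp
  set ν := min 1 (ε / (4 * (M + 1))) with hνdef
  have hν0 : 0 < ν := lt_min one_pos (by positivity)
  have hν1 : ν ≤ 1 := min_le_left _ _
  have hνε : 2 * ν * (M + 1) ≤ ε / 2 := by
    have h1 : ν ≤ ε / (4 * (M + 1)) := min_le_right _ _
    have h2 : ν * (4 * (M + 1)) ≤ ε := by
      rwa [le_div_iff₀ (by positivity)] at h1
    linarith
  obtain ⟨δf, hδf, hUf⟩ := Metric.uniformContinuousOn_iff_le.mp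
    (isCompact_Icc.uniformContinuousOn_of_continuous hf) (ε / 2) (by positivity)
  obtain ⟨δR, hδR, hUR⟩ := Metric.uniformContinuousOn_iff_le.mp
    (isCompact_Icc.uniformContinuousOn_of_continuous hR) (ν / 2) (by positivity)
  refine ⟨min (min δf δR) (ν / (2 * (L * Λ) + 1)), lt_min (lt_min hδf hδR) (by positivity), ?_⟩
  intro t₀ t₁ c h0 h01 h1 hδ hc0 hc1
  have hDf : t₁ - t₀ ≤ δf := hδ.trans ((min_le_left _ _).trans (min_le_left _ _))
  have hDR : t₁ - t₀ ≤ δR := hδ.trans ((min_le_left _ _).trans (min_le_right _ _))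
  have hDΛ : t₁ - t₀ ≤ ν / (2 * (L * Λ) + 1) := hδ.trans (min_le_right _ _)
  have hD : 0 < t₁ - t₀ := by linarith
  have hc : c ∈ Set.Icc t₀ t₁ := ⟨hc0, hc1⟩
  have hsub : Set.Icc t₀ t₁ ⊆ Set.Icc α β := Set.Icc_subset_Icc h0 h1
  have hcαβ : c ∈ Set.Icc α β := hsub hc
  have hLΛ : 0 ≤ L * Λ := mul_nonneg hL.le hΛ0
  have hν2 : 2 * (L * Λ * (t₁ - t₀)) ≤ ν := by
    have h2 : (t₁ - t₀) * (2 * (L * Λ) + 1) ≤ ν := by
      rwa [le_div_iff₀ (by positivity)] at hDΛ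
    nlinarith
  have hwce : inner ℝ (w c) e = 0 := hw c hcαβ
  have hu : e + w c ≠ 0 := axis_ne_zero e (w c) he hwce
  have hRc0 : 0 ≤ R c := hR0 c hcαβ
  have hRcM : R c ≤ M := le_trans (le_abs_self _) (hM c hcαβ)
  have hdist : ∀ τ ∈ Set.Icc t₀ t₁, |τ - c| ≤ t₁ - t₀ := by
    intro τ hτ
    rw [abs_le]; constructor <;> linarith [hτ.1, hτ.2]
  have hRosc : ∀ τ ∈ Set.Icc t₀ t₁, |R τ - R c| ≤ ν / 2 := by
    intro τ hτ
    have := hUR τ (hsub hτ) c hcαβ (by rw [Real.dist_eq]; exact (hdist τ hτ).trans hDR)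
    rwa [Real.dist_eq] at this
  have hfosc : ∀ τ ∈ Set.Icc t₀ t₁, |f c - f τ| ≤ ε / 2 := by
    intro τ hτ
    have := hUf c hcαβ τ (hsub hτ) (by
      rw [Real.dist_eq, abs_sub_comm]; exact (hdist τ hτ).trans hDf)
    rwa [Real.dist_eq] at this
  set S := Real.sqrt (1 + ‖w c‖ ^ 2) with hSdef
  have hS : 1 ≤ S := by
    rw [hSdef]
    apply Real.one_le_sqrt.mpr
    nlinarith [sq_nonneg ‖w c‖]
  set H := R c + 2 * ν with hHdef
  have hH : 0 < H := by positivity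
  set r' := max (R c - ν) 0 with hr'def
  have hr'0 : 0 ≤ r' := le_max_right _ _
  set V := p₀ - ν • (a + ((t₀ + t₁) / 2) • b) with hVdef
  -- integral estimate
  have hfint : IntervalIntegrable f volume t₀ t₁ := by
    apply ContinuousOn.intervalIntegrable
    rw [Set.uIcc_of_le h01.le]; exact hf.mono hsub
  have hI : |(t₁ - t₀) * f c - ∫ τ in t₀..t₁, f τ| ≤ ε / 2 * (t₁ - t₀) := by
    have e1 : (t₁ - t₀) * f c - ∫ τ in t₀..t₁, f τ = ∫ τ in t₀..t₁, (f c - f τ) := by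
      rw [intervalIntegral.integral_sub intervalIntegrable_const hfint]
      simp
    rw [e1]
    have := intervalIntegral.norm_integral_le_of_norm_le_const (a := t₀) (b := t₁)
      (f := fun τ => f c - f τ) (C := ε / 2) (fun x hx => by
        rw [Real.norm_eq_abs]
        rw [Set.uIoc_of_le h01.le] at hx
        exact hfosc x ⟨hx.1.le, hx.2⟩)
    rwa [Real.norm_eq_abs, abs_of_pos hD] at this
  -- areas
  have hAout := area_fan e (w c) a b V he hwce ha hb H t₀ t₁ h01.le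
  have hAin := area_fan e (w c) a b p₀ he hwce ha hb r' t₀ t₁ h01.le
  have hAout_nn : 0 ≤ κ * ((t₁ - t₀) * (H ^ 2 / (2 * S))) := by positivity
  have hAin_nn : 0 ≤ κ * ((t₁ - t₀) * (r' ^ 2 / (2 * S))) := by positivity
  have hgp : H ^ 2 / (2 * S) ≤ f c + ε / 2 :=
    (num_outer (R c) ν M S hRc0 hRcM hν0.le hν1 hS).trans (by linarith)
  have hgm : f c - ε / 2 ≤ r' ^ 2 / (2 * S) :=
    le_trans (by linarith) (num_inner (R c) ν M S hRc0 hRcM hν0.le hS)
  have hr'H : r' ^ 2 / (2 * S) ≤ H ^ 2 / (2 * S) := by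
    apply div_le_div_of_nonneg_right _ (by linarith)
    apply pow_le_pow_left₀ hr'0
    rw [hr'def, hHdef]
    exact max_le (by linarith) (by linarith)
  have hout : ∀ x ∈ piece e a b p₀ L R w t₀ t₁, projAlong (e + w c) x ∈ convexHull ℝ
      ({projAlong (e + w c) V, projAlong (e + w c) (V + H • (a + t₁ • b)),
        projAlong (e + w c) (V + H • (a + t₀ • b))} : Set E3) := by
    intro x hx
    apply piece_outer e a b p₀ he L hL.le α β R w hw lam hlam hw' Λ hΛ t₀ t₁ c ν H h0 h01 h1 hc hH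
      hν2 _ x hx
    intro τ hτ
    have := (abs_le.mp (hRosc τ hτ)).2
    rw [hHdef]; linarith
  have hin := piece_inner e a b p₀ (e + w c) L hL.le R w t₀ t₁ r' h01.le hr'0 (by
    intro τ hτ
    have h1 := (abs_le.mp (hRosc τ hτ)).1
    have h2 := hR0 τ (hsub hτ)
    rw [hr'def]
    exact max_le (by linarith) h2)
  constructor
  · refine ⟨projAlong (e + w c) V, projAlong (e + w c) (V + H • (a + t₁ • b)),
      projAlong (e + w c) (V + H • (a + t₀ • b)),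
      ⟨inner_projAlong _ _ hu, inner_projAlong _ _ hu, inner_projAlong _ _ hu⟩, ?_, hout, ?_⟩
    · apply affineIndependent_of_gram2_pos
      rw [gram2_proj_fan e (w c) a b V he hwce ha hb]
      positivity
    · rw [hAout, ENNReal.toReal_ofReal hAout_nn]
      exact final_bound κ (t₁ - t₀) (f c) (H ^ 2 / (2 * S)) (r' ^ 2 / (2 * S)) _ _ ε η hκ hD.le
        hgp hgm hI (by gcongr) le_rfl hκε
  · have hZ2 : μHE[2] (projAlong (e + w c) '' piece e a b p₀ L R w t₀ t₁) ≤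
        ENNReal.ofReal (κ * ((t₁ - t₀) * (H ^ 2 / (2 * S)))) := by
      rw [← hAout]
      apply measure_mono
      rintro _ ⟨x, hx, rfl⟩
      exact hout x hx
    have hZ1 : ENNReal.ofReal (κ * ((t₁ - t₀) * (r' ^ 2 / (2 * S)))) ≤
        μHE[2] (projAlong (e + w c) '' piece e a b p₀ L R w t₀ t₁) := by
      rw [← hAin]
      exact measure_mono hin
    have hfin : μHE[2] (projAlong (e + w c) '' piece e a b p₀ L R w t₀ t₁) ≠ ⊤ :=
      ne_top_of_le_ne_top ENNReal.ofReal_ne_top hZ2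
    apply final_bound κ (t₁ - t₀) (f c) (H ^ 2 / (2 * S)) (r' ^ 2 / (2 * S)) _ _ ε η hκ hD.le
        hgp hgm hI _ _ hκε
    · rw [← ENNReal.toReal_ofReal hAin_nn]
      exact ENNReal.toReal_mono hfin hZ1
    · rw [← ENNReal.toReal_ofReal hAout_nn]
      exact ENNReal.toReal_mono ENNReal.ofReal_ne_top hZ2

end Crest.Agent.S0328Aux
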