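import Mathlib

/-! General lemmas for S0328: partitions indexed by `Fin (N+1)`, convex hulls of three points. -/

set_option autoImplicit false
open MeasureTheory

namespace Crest.Agent.S0328Aux

/-- Every point between `t 0` and `t j` lies in one of the pieces. -/
theorem exists_piece {N : ℕ} (t : Fin (N + 1) → ℝ) (τ : ℝ) (h0 : t 0 ≤ τ) :
    ∀ j : Fin (N + 1), τ ≤ t j → t 0 < t j → ∃ i : Fin N, t i.castSucc ≤ τ ∧ τ ≤ t i.succ := by
  intro j
  induction j using Fin.induction with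
  | zero => intro _ h; exact absurd h (lt_irrefl _)
  | succ i ih =>
    intro h1 _
    by_cases h : t i.castSucc ≤ τ
    · exact ⟨i, h, h1⟩
    · have h' := not_le.mp h
      exact ih h'.le (lt_of_le_of_lt h0 h')

theorem sum_integral_pieces {N : ℕ} (t : Fin (N + 1) → ℝ) (f : ℝ → ℝ)
    (hint : ∀ i j : Fin (N + 1), IntervalIntegrable f volume (t i) (t j)) :
    ∑ i : Fin N, ∫ x in (t i.castSucc)..(t i.succ), f x = ∫ x in (t 0)..(t (Fin.last N)), f x := by
  induction N with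
  | zero => simp
  | succ n ih =>
    rw [Fin.sum_univ_castSucc]
    have h := ih (fun i => t i.castSucc) (fun i j => hint _ _)
    simp only [Fin.succ_castSucc] at h ⊢
    rw [h]
    have : (Fin.last n).succ = Fin.last (n + 1) := rfl
    rw [this]
    have h0 : (0 : Fin (n + 1)).castSucc = (0 : Fin (n + 2)) := rfl
    rw [h0]
    exact intervalIntegral.integral_add_adjacent_intervals (hint _ _) (hint _ _)

theorem sum_length_pieces {N : ℕ} (t : Fin (N + 1) → ℝ) :
    ∑ i : Fin N, (t i.succ - t i.castSucc) = t (Fin.last N) - t 0 := by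
  have h := sum_integral_pieces t (fun _ => (1 : ℝ)) (fun i j => intervalIntegrable_const)
  simpa using h

section Hull
variable {V : Type*} [AddCommGroup V] [Module ℝ V]

theorem mem_convexHull_triple {p q r : V} {m0 m1 m2 : ℝ} (h0 : 0 ≤ m0) (h1 : 0 ≤ m1)
    (h2 : 0 ≤ m2) (hs : m0 + m1 + m2 = 1) :
    m0 • p + m1 • q + m2 • r ∈ convexHull ℝ ({p, q, r} : Set V) := by
  have hc := convex_convexHull ℝ ({p, q, r} : Set V)
  have hp : p ∈ convexHull ℝ ({p, q, r} : Set V) := subset_convexHull ℝ _ (by simp)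
  have hq : q ∈ convexHull ℝ ({p, q, r} : Set V) := subset_convexHull ℝ _ (by simp)
  have hr : r ∈ convexHull ℝ ({p, q, r} : Set V) := subset_convexHull ℝ _ (by simp)
  have := hc.sum_mem (t := Finset.univ) (w := ![m0, m1, m2]) (z := ![p, q, r])
    (by intro i _; fin_cases i <;> simp [h0, h1, h2])
    (by simp [Fin.sum_univ_three, hs])
    (by intro i _; fin_cases i <;> simp [hp, hq, hr])
  simpa [Fin.sum_univ_three] using this

theorem exists_of_mem_convexHull_triple {p q r x : V}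
    (hx : x ∈ convexHull ℝ ({p, q, r} : Set V)) :
    ∃ m0 m1 m2 : ℝ, 0 ≤ m0 ∧ 0 ≤ m1 ∧ 0 ≤ m2 ∧ m0 + m1 + m2 = 1 ∧
      x = m0 • p + m1 • q + m2 • r := by
  have hconv : Convex ℝ {x : V | ∃ m0 m1 m2 : ℝ, 0 ≤ m0 ∧ 0 ≤ m1 ∧ 0 ≤ m2 ∧ m0 + m1 + m2 = 1 ∧
      x = m0 • p + m1 • q + m2 • r} := by
    rintro x ⟨m0, m1, m2, h0, h1, h2, hs, rfl⟩ y ⟨n0, n1, n2, k0, k1, k2, ks, rfl⟩ A B hA hB hAB
    refine ⟨A * m0 + B * n0, A * m1 + B * n1, A * m2 + B * n2, by positivity, by positivity,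
      by positivity, ?_, ?_⟩
    · calc A * m0 + B * n0 + (A * m1 + B * n1) + (A * m2 + B * n2)
          = A * (m0 + m1 + m2) + B * (n0 + n1 + n2) := by ring
        _ = 1 := by rw [hs, ks]; linarith
    · module
  have hsub : ({p, q, r} : Set V) ⊆ {x : V | ∃ m0 m1 m2 : ℝ, 0 ≤ m0 ∧ 0 ≤ m1 ∧ 0 ≤ m2 ∧
      m0 + m1 + m2 = 1 ∧ x = m0 • p + m1 • q + m2 • r} := by
    rintro x (rfl | rfl | rfl)
    · exact ⟨1, 0, 0, by norm_num, le_rfl, le_rfl, by norm_num, by simp⟩
    · exact ⟨0, 1, 0, le_rfl, by norm_num, le_rfl, by norm_num, by simp⟩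
    · exact ⟨0, 0, 1, le_rfl, le_rfl, by norm_num, by norm_num, by simp⟩
  exact convexHull_min hsub hconv hx

end Hull

end Crest.Agent.S0328Aux
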