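import Crest.Agent.S0328Aux.Piece

/-! Quantitative estimates for one piece of a radial sweep. -/

set_option autoImplicit false
open MeasureTheory
open scoped ENNReal

namespace Crest.Agent.S0328Aux
open Crest.Agent.S0324Aux

theorem num_outer (Rc ν M S : ℝ) (hR0 : 0 ≤ Rc) (hRM : Rc ≤ M) (hν0 : 0 ≤ ν) (hν1 : ν ≤ 1)
    (hS : 1 ≤ S) : (Rc + 2 * ν) ^ 2 / (2 * S) ≤ Rc ^ 2 / (2 * S) + 2 * ν * (M + 1) := by
  have e1 : (Rc + 2 * ν) ^ 2 / (2 * S) = Rc ^ 2 / (2 * S) + (4 * ν * Rc + 4 * ν ^ 2) / (2 * S) := by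
    ring
  rw [e1]
  have h1 : (4 * ν * Rc + 4 * ν ^ 2) / (2 * S) ≤ (4 * ν * Rc + 4 * ν ^ 2) / 2 := by
    apply div_le_div_of_nonneg_left (by positivity) (by norm_num) (by linarith)
  have h2 : ν * Rc ≤ ν * M := mul_le_mul_of_nonneg_left hRM hν0
  have h3 : ν ^ 2 ≤ ν := by nlinarith
  linarith

theorem num_inner (Rc ν M S : ℝ) (hR0 : 0 ≤ Rc) (hRM : Rc ≤ M) (hν0 : 0 ≤ ν)
    (hS : 1 ≤ S) : Rc ^ 2 / (2 * S) - 2 * ν * (M + 1) ≤ (max (Rc - ν) 0) ^ 2 / (2 * S) := by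
  have hkey : Rc ^ 2 - 2 * ν * Rc ≤ (max (Rc - ν) 0) ^ 2 := by
    rcases le_total 0 (Rc - ν) with h | h
    · rw [max_eq_left h]; nlinarith [sq_nonneg ν]
    · rw [max_eq_right h]; nlinarith
  have e1 : Rc ^ 2 / (2 * S) = (Rc ^ 2 - 2 * ν * Rc) / (2 * S) + (2 * ν * Rc) / (2 * S) := by ring
  have h0 : (Rc ^ 2 - 2 * ν * Rc) / (2 * S) ≤ (max (Rc - ν) 0) ^ 2 / (2 * S) :=
    div_le_div_of_nonneg_right hkey (by linarith)
  have h1 : (2 * ν * Rc) / (2 * S) ≤ (2 * ν * Rc) / 2 := by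
    apply div_le_div_of_nonneg_left (by positivity) (by norm_num) (by linarith)
  have h2 : ν * Rc ≤ ν * M := mul_le_mul_of_nonneg_left hRM hν0
  rw [e1]
  nlinarith

theorem final_bound (κ D fc gp gm I Z ε η : ℝ) (hκ : 0 < κ) (hD : 0 ≤ D)
    (h1 : gp ≤ fc + ε / 2) (h2 : fc - ε / 2 ≤ gm) (h3 : |D * fc - I| ≤ ε / 2 * D)
    (hZ1 : κ * (D * gm) ≤ Z) (hZ2 : Z ≤ κ * (D * gp)) (hε : κ * ε = η) :
    |Z - κ * I| ≤ η * D := by
  have a1 : κ * (D * gp) ≤ κ * (D * (fc + ε / 2)) :=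
    mul_le_mul_of_nonneg_left (mul_le_mul_of_nonneg_left h1 hD) hκ.le
  have a2 : κ * (D * (fc - ε / 2)) ≤ κ * (D * gm) :=
    mul_le_mul_of_nonneg_left (mul_le_mul_of_nonneg_left h2 hD) hκ.le
  have a3 := mul_le_mul_of_nonneg_left (abs_le.mp h3).2 hκ.le
  have a4 := mul_le_mul_of_nonneg_left (abs_le.mp h3).1 hκ.le
  rw [← hε, abs_le]
  constructor <;> nlinarith

end Crest.Agent.S0328Aux
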