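import Crest.Agent.S0324Aux.Area
import Crest.Agent.S0324Aux.Area2
import Crest.Agent.S0328Aux.Basic

/-! Geometry of one piece of a radial sweep. -/

set_option autoImplicit false
open MeasureTheory
open scoped ENNReal

namespace Crest.Agent.S0328Aux
open Crest.Agent.S0324Aux

theorem projAlong_add (n x y : E3) : projAlong n (x + y) = projAlong n x + projAlong n y := by
  unfold projAlong
  rw [inner_add_left, add_div, add_smul]
  abel

theorem projAlong_smul (n : E3) (k : ℝ) (x : E3) : projAlong n (k • x) = k • projAlong n x := by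
  unfold projAlong
  rw [inner_smul_left, smul_sub, smul_smul]
  simp [mul_div_assoc]

theorem projAlong_sub (n x y : E3) : projAlong n (x - y) = projAlong n x - projAlong n y := by
  unfold projAlong
  rw [inner_sub_left, sub_div, sub_smul]
  abel

theorem projAlong_self (n : E3) (hn : n ≠ 0) : projAlong n n = 0 := by
  unfold projAlong
  rw [real_inner_self_eq_norm_sq, div_self (by positivity), one_smul, sub_self]

theorem gram2_fan (a b : E3) (H t₀ t₁ : ℝ) :
    gram2 (H • (a + t₁ • b)) (H • (a + t₀ • b)) = (H ^ 2 * (t₁ - t₀)) ^ 2 * gram2 a b := by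
  unfold gram2
  simp only [← real_inner_self_eq_norm_sq, inner_add_left, inner_add_right, inner_smul_left,
    inner_smul_right, real_inner_comm a b, RCLike.conj_to_real]
  ring

theorem gram2_pos_of_linearIndependent {a b : E3} (hab : LinearIndependent ℝ ![a, b]) :
    0 < gram2 a b := by
  rcases (gram2_nonneg a b).lt_or_eq with h | h
  · exact h
  · exfalso
    have hkey : ‖(‖b‖ ^ 2) • a + (-(inner ℝ a b)) • b‖ ^ 2 = ‖b‖ ^ 2 * gram2 a b := by
      unfold gram2
      simp only [← real_inner_self_eq_norm_sq, inner_add_left, inner_add_right, inner_smul_left,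
        inner_smul_right, real_inner_comm a b, RCLike.conj_to_real]
      ring
    rw [← h, mul_zero] at hkey
    have h0 : (‖b‖ ^ 2) • a + (-(inner ℝ a b)) • b = 0 := by
      have := pow_eq_zero_iff (two_ne_zero) |>.mp hkey
      exact norm_eq_zero.mp this
    have := (LinearIndependent.pair_iff.mp hab) _ _ h0
    have hb0 : b = 0 := by
      have := pow_eq_zero_iff (two_ne_zero) |>.mp this.1
      exact norm_eq_zero.mp this
    have h1 := (LinearIndependent.pair_iff.mp hab) 0 1 (by simp [hb0])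
    exact one_ne_zero h1.2

theorem affineIndependent_of_gram2_pos (p q r : E3) (h : 0 < gram2 (q - p) (r - p)) :
    AffineIndependent ℝ ![p, q, r] := by
  rw [affineIndependent_iff_of_fintype]
  intro wt hs hsum
  rw [Finset.weightedVSub_eq_linear_combination _ hs] at hsum
  simp only [Fin.sum_univ_three, Matrix.cons_val_zero, Matrix.cons_val_one, Matrix.cons_val_two,
    Matrix.head_cons, Matrix.tail_cons] at hs hsum
  have h0 : wt 0 = -(wt 1) - wt 2 := by linarith
  have hv : wt 1 • (q - p) + wt 2 • (r - p) = 0 := by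
    rw [h0] at hsum
    rw [← hsum]; module
  have hx : wt 1 * ‖q - p‖ ^ 2 + wt 2 * inner ℝ (q - p) (r - p) = 0 := by
    have := congrArg (fun z => inner ℝ (q - p) z) hv
    simpa [inner_add_right, inner_smul_right, real_inner_self_eq_norm_sq] using this
  have hy : wt 1 * inner ℝ (q - p) (r - p) + wt 2 * ‖r - p‖ ^ 2 = 0 := by
    have := congrArg (fun z => inner ℝ z (r - p)) hv
    simpa [inner_add_left, inner_smul_left, real_inner_self_eq_norm_sq] using this
  unfold gram2 at h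
  have h1 : wt 1 * (‖q - p‖ ^ 2 * ‖r - p‖ ^ 2 - inner ℝ (q - p) (r - p) ^ 2) = 0 := by
    linear_combination ‖r - p‖ ^ 2 * hx - inner ℝ (q - p) (r - p) * hy
  have h2 : wt 2 * (‖q - p‖ ^ 2 * ‖r - p‖ ^ 2 - inner ℝ (q - p) (r - p) ^ 2) = 0 := by
    linear_combination ‖q - p‖ ^ 2 * hy - inner ℝ (q - p) (r - p) * hx
  have e1 : wt 1 = 0 := (mul_eq_zero.mp h1).resolve_right h.ne'
  have e2 : wt 2 = 0 := (mul_eq_zero.mp h2).resolve_right h.ne'
  intro i
  fin_cases i
  · simp [h0, e1, e2]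
  · simpa using e1
  · simpa using e2

/-- Gram determinant of the projected fan triangle. -/
theorem gram2_proj_fan (e w a b V : E3) (he : ‖e‖ = 1) (hw : inner ℝ w e = 0)
    (ha : inner ℝ a e = 0) (hb : inner ℝ b e = 0) (H t₀ t₁ : ℝ) :
    gram2 (projAlong (e + w) (V + H • (a + t₁ • b)) - projAlong (e + w) V)
      (projAlong (e + w) (V + H • (a + t₀ • b)) - projAlong (e + w) V) =
      (H ^ 2 * (t₁ - t₀)) ^ 2 * gram2 a b / (1 + ‖w‖ ^ 2) := by
  rw [← projAlong_sub, ← projAlong_sub, add_sub_cancel_left, add_sub_cancel_left,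
    gram2_projAlong e w _ _ he hw, gram2_fan]
  · simp [inner_smul_left, inner_add_left, ha, hb]
  · simp [inner_smul_left, inner_add_left, ha, hb]

/-- Area of the projected fan triangle. -/
theorem area_fan (e w a b V : E3) (he : ‖e‖ = 1) (hw : inner ℝ w e = 0)
    (ha : inner ℝ a e = 0) (hb : inner ℝ b e = 0) (H t₀ t₁ : ℝ) (ht : t₀ ≤ t₁) :
    μHE[2] (convexHull ℝ ({projAlong (e + w) V, projAlong (e + w) (V + H • (a + t₁ • b)),
        projAlong (e + w) (V + H • (a + t₀ • b))} : Set E3)) =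
      ENNReal.ofReal (Real.sqrt (gram2 a b) * ((t₁ - t₀) * (H ^ 2 / (2 * Real.sqrt (1 + ‖w‖ ^ 2))))) := by
  rw [area_triangle, gram2_proj_fan e w a b V he hw ha hb]
  congr 1
  have h1 : (0 : ℝ) ≤ H ^ 2 * (t₁ - t₀) := mul_nonneg (sq_nonneg _) (by linarith)
  rw [Real.sqrt_div (mul_nonneg (sq_nonneg _) (gram2_nonneg a b)),
    Real.sqrt_mul (sq_nonneg _), Real.sqrt_sq h1]
  have h2 : 0 < Real.sqrt (1 + ‖w‖ ^ 2) := Real.sqrt_pos.mpr (by positivity)
  field_simp

/-- Membership in the outer triangle, in barycentric form. -/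
theorem outer_mem (a b V : E3) (t₀ t₁ H X Y : ℝ) (ht : t₀ < t₁) (hH : 0 < H)
    (h1 : 0 ≤ Y - t₀ * X) (h2 : 0 ≤ t₁ * X - Y) (h3 : X ≤ H) :
    ∃ m0 m1 m2 : ℝ, 0 ≤ m0 ∧ 0 ≤ m1 ∧ 0 ≤ m2 ∧ m0 + m1 + m2 = 1 ∧
      V + X • a + Y • b = m0 • V + m1 • (V + H • (a + t₁ • b)) + m2 • (V + H • (a + t₀ • b)) := by
  have hD : 0 < t₁ - t₀ := by linarith
  have hHD : 0 < H * (t₁ - t₀) := mul_pos hH hD
  refine ⟨1 - X / H, (Y - t₀ * X) / (H * (t₁ - t₀)), (t₁ * X - Y) / (H * (t₁ - t₀)), ?_, ?_, ?_,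
    ?_, ?_⟩
  · rw [sub_nonneg, div_le_one hH]; exact h3
  · exact div_nonneg h1 hHD.le
  · exact div_nonneg h2 hHD.le
  · field_simp; ring
  · have e1 : X = H * ((Y - t₀ * X) / (H * (t₁ - t₀)) + (t₁ * X - Y) / (H * (t₁ - t₀))) := by
      field_simp; ring
    have e2 : Y = H * ((Y - t₀ * X) / (H * (t₁ - t₀)) * t₁ + (t₁ * X - Y) / (H * (t₁ - t₀)) * t₀) := by
      field_simp; ring
    have e3 : X / H = (Y - t₀ * X) / (H * (t₁ - t₀)) + (t₁ * X - Y) / (H * (t₁ - t₀)) := by
      field_simp; ring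
    set m1 := (Y - t₀ * X) / (H * (t₁ - t₀)) with hm1
    set m2 := (t₁ * X - Y) / (H * (t₁ - t₀)) with hm2
    rw [e3]
    calc V + X • a + Y • b = V + (H * (m1 + m2)) • a + (H * (m1 * t₁ + m2 * t₀)) • b := by
          rw [← e1, ← e2]
      _ = _ := by module

/-- The inner triangle consists of points of the sector. -/
theorem inner_sub (a b V : E3) (t₀ t₁ r' : ℝ) (ht : t₀ ≤ t₁) (hr : 0 ≤ r') (m0 m1 m2 : ℝ)
    (h0 : 0 ≤ m0) (h1 : 0 ≤ m1) (h2 : 0 ≤ m2) (hs : m0 + m1 + m2 = 1) :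
    ∃ τ ∈ Set.Icc t₀ t₁, ∃ ρ ∈ Set.Icc 0 r',
      m0 • V + m1 • (V + r' • (a + t₁ • b)) + m2 • (V + r' • (a + t₀ • b)) =
        V + ρ • (a + τ • b) := by
  rcases (add_nonneg h1 h2).lt_or_eq with hpos | hzero
  · refine ⟨(m1 * t₁ + m2 * t₀) / (m1 + m2), ⟨?_, ?_⟩, r' * (m1 + m2), ⟨by positivity, ?_⟩, ?_⟩
    · rw [le_div_iff₀ hpos]; nlinarith
    · rw [div_le_iff₀ hpos]; nlinarith
    · nlinarith
    · have e1 : r' * (m1 + m2) * ((m1 * t₁ + m2 * t₀) / (m1 + m2)) = r' * (m1 * t₁ + m2 * t₀) := by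
        field_simp
      have e0 : m0 = 1 - m1 - m2 := by linarith
      rw [smul_add (r' * (m1 + m2)), smul_smul, e1, e0]
      module
  · have e1 : m1 = 0 := by linarith
    have e2 : m2 = 0 := by linarith
    have e0 : m0 = 1 := by linarith
    refine ⟨t₀, ⟨le_rfl, ht⟩, 0, ⟨le_rfl, hr⟩, ?_⟩
    rw [e0, e1, e2]; simp

end Crest.Agent.S0328Aux
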