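import Mathlib

/-! The increment of the direction field `w` of a radial sweep. -/

set_option autoImplicit false
open MeasureTheory

namespace Crest.Agent.S0328Aux

variable {V : Type*} [NormedAddCommGroup V] [NormedSpace ℝ V] [CompleteSpace V]

/-- If `w' = lam • (a + t • b)` on `[α, β]` and `|lam| ≤ Λ`, then on a subinterval `[t₀, t₁]`
the increment of `w` is `I₀ • a + I₁ • b` with explicit bounds. -/
theorem w_diff (a b : V) (α β : ℝ) (w : ℝ → V) (lam : ℝ → ℝ)
    (hlam : ContinuousOn lam (Set.Icc α β))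
    (hw' : ∀ t ∈ Set.Icc α β, HasDerivWithinAt w (lam t • (a + t • b)) (Set.Icc α β) t)
    (Λ : ℝ) (hΛ : ∀ t ∈ Set.Icc α β, |lam t| ≤ Λ)
    (t₀ t₁ c τ : ℝ) (h0 : α ≤ t₀) (h1 : t₁ ≤ β) (hc : c ∈ Set.Icc t₀ t₁) (hτ : τ ∈ Set.Icc t₀ t₁) :
    ∃ I₀ I₁ : ℝ, w τ - w c = I₀ • a + I₁ • b ∧ |I₀| ≤ Λ * (t₁ - t₀) ∧
      |I₁ - t₀ * I₀| ≤ Λ * (t₁ - t₀) ^ 2 ∧ |I₁ - t₁ * I₀| ≤ Λ * (t₁ - t₀) ^ 2 := by
  have hsub : Set.uIcc c τ ⊆ Set.Icc t₀ t₁ := Set.uIcc_subset_Icc hc hτ
  have hsub' : Set.Icc t₀ t₁ ⊆ Set.Icc α β := Set.Icc_subset_Icc h0 h1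
  have hsub2 : Set.uIcc c τ ⊆ Set.Icc α β := hsub.trans hsub'
  have hD : 0 ≤ t₁ - t₀ := by linarith [hc.1, hc.2]
  have hΛ0 : 0 ≤ Λ := le_trans (abs_nonneg _) (hΛ c (hsub' hc))
  have hlen : |τ - c| ≤ t₁ - t₀ := by
    rw [abs_le]; constructor <;> linarith [hc.1, hc.2, hτ.1, hτ.2]
  have hlamc : ContinuousOn lam (Set.uIcc c τ) := hlam.mono hsub2
  have hi0 : IntervalIntegrable lam volume c τ := hlamc.intervalIntegrable
  have hi1 : IntervalIntegrable (fun σ => lam σ * σ) volume c τ :=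
    (hlamc.mul continuousOn_id).intervalIntegrable
  have hwc : ContinuousOn w (Set.uIcc c τ) := fun x hx =>
    ((hw' x (hsub2 hx)).continuousWithinAt).mono hsub2
  have hFTC : ∫ σ in c..τ, lam σ • (a + σ • b) = w τ - w c := by
    apply intervalIntegral.integral_eq_sub_of_hasDeriv_right hwc
    · intro x hx
      have hx' : x ∈ Set.Ioo α β := by
        have h3 : Set.Ioo (min c τ) (max c τ) ⊆ Set.Ioo α β := by
          apply Set.Ioo_subset_Ioo
          · exact le_min (h0.trans hc.1) (h0.trans hτ.1)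
          · exact max_le (hc.2.trans h1) (hτ.2.trans h1)
        exact h3 hx
      have := (hw' x ⟨hx'.1.le, hx'.2.le⟩).hasDerivAt (Icc_mem_nhds hx'.1 hx'.2)
      exact this.hasDerivWithinAt
    · apply ContinuousOn.intervalIntegrable
      apply ContinuousOn.smul hlamc
      exact (continuousOn_const.add (continuousOn_id.smul continuousOn_const))
  refine ⟨∫ σ in c..τ, lam σ, ∫ σ in c..τ, lam σ * σ, ?_, ?_, ?_, ?_⟩
  · rw [← hFTC, ← intervalIntegral.integral_smul_const, ← intervalIntegral.integral_smul_const,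
      ← intervalIntegral.integral_add]
    · congr 1; ext σ; rw [smul_add, smul_smul]
    · exact (hlamc.smul continuousOn_const).intervalIntegrable
    · exact ((hlamc.mul continuousOn_id).smul continuousOn_const).intervalIntegrable
  · have := intervalIntegral.norm_integral_le_of_norm_le_const (a := c) (b := τ) (f := lam) (C := Λ)
      (fun x hx => by
        rw [Real.norm_eq_abs]
        exact hΛ x (hsub2 (Set.uIoc_subset_uIcc hx)))
    rw [Real.norm_eq_abs] at this
    exact this.trans (mul_le_mul_of_nonneg_left hlen hΛ0)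
  · have heq : (∫ σ in c..τ, lam σ * σ) - t₀ * ∫ σ in c..τ, lam σ
        = ∫ σ in c..τ, lam σ * (σ - t₀) := by
      rw [← intervalIntegral.integral_const_mul, ← intervalIntegral.integral_sub hi1
        (hi0.const_mul t₀)]
      congr 1; ext σ; ring
    rw [heq]
    have := intervalIntegral.norm_integral_le_of_norm_le_const (a := c) (b := τ)
      (f := fun σ => lam σ * (σ - t₀)) (C := Λ * (t₁ - t₀))
      (fun x hx => by
        have hx1 := hsub (Set.uIoc_subset_uIcc hx)
        rw [Real.norm_eq_abs, abs_mul]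
        apply mul_le_mul (hΛ x (hsub' hx1)) _ (abs_nonneg _) hΛ0
        rw [abs_le]; constructor <;> linarith [hx1.1, hx1.2])
    rw [Real.norm_eq_abs] at this
    calc _ ≤ Λ * (t₁ - t₀) * |τ - c| := this
      _ ≤ Λ * (t₁ - t₀) * (t₁ - t₀) := mul_le_mul_of_nonneg_left hlen (by positivity)
      _ = _ := by ring
  · have heq : (∫ σ in c..τ, lam σ * σ) - t₁ * ∫ σ in c..τ, lam σ
        = ∫ σ in c..τ, lam σ * (σ - t₁) := by
      rw [← intervalIntegral.integral_const_mul, ← intervalIntegral.integral_sub hi1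
        (hi0.const_mul t₁)]
      congr 1; ext σ; ring
    rw [heq]
    have := intervalIntegral.norm_integral_le_of_norm_le_const (a := c) (b := τ)
      (f := fun σ => lam σ * (σ - t₁)) (C := Λ * (t₁ - t₀))
      (fun x hx => by
        have hx1 := hsub (Set.uIoc_subset_uIcc hx)
        rw [Real.norm_eq_abs, abs_mul]
        apply mul_le_mul (hΛ x (hsub' hx1)) _ (abs_nonneg _) hΛ0
        rw [abs_le]; constructor <;> linarith [hx1.1, hx1.2])
    rw [Real.norm_eq_abs] at this
    calc _ ≤ Λ * (t₁ - t₀) * |τ - c| := this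
      _ ≤ Λ * (t₁ - t₀) * (t₁ - t₀) := mul_le_mul_of_nonneg_left hlen (by positivity)
      _ = _ := by ring

end Crest.Agent.S0328Aux
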