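import Crest.Agent.S0328Aux.Geom
import Crest.Agent.S0328Aux.WDiff

/-! One piece of a radial sweep: outer and inner triangles. -/

set_option autoImplicit false
open MeasureTheory
open scoped ENNReal

namespace Crest.Agent.S0328Aux
open Crest.Agent.S0324Aux

/-- A piece of the sweep. -/
def piece (e a b p₀ : E3) (L : ℝ) (R : ℝ → ℝ) (w : ℝ → E3) (t₀ t₁ : ℝ) : Set E3 :=
  {x | ∃ τ ∈ Set.Icc t₀ t₁, ∃ ρ ∈ Set.Icc 0 (R τ), ∃ s : ℝ, |s| ≤ L ∧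
      x = p₀ + ρ • (a + τ • b) + s • (e + w τ)}

theorem axis_ne_zero (e w : E3) (he : ‖e‖ = 1) (hw : inner ℝ w e = 0) : e + w ≠ 0 := by
  intro h
  have : inner ℝ (e + w) e = 1 := by
    rw [inner_add_left, hw, real_inner_self_eq_norm_sq, he]; norm_num
  rw [h, inner_zero_left] at this
  exact zero_ne_one this

/-- The shadow of a piece lies in the outer triangle. -/
theorem piece_outer (e a b p₀ : E3) (he : ‖e‖ = 1) (L : ℝ) (hL : 0 ≤ L) (α β : ℝ)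
    (R : ℝ → ℝ) (w : ℝ → E3) (hw : ∀ t ∈ Set.Icc α β, inner ℝ (w t) e = 0)
    (lam : ℝ → ℝ) (hlam : ContinuousOn lam (Set.Icc α β))
    (hw' : ∀ t ∈ Set.Icc α β, HasDerivWithinAt w (lam t • (a + t • b)) (Set.Icc α β) t)
    (Λ : ℝ) (hΛ : ∀ t ∈ Set.Icc α β, |lam t| ≤ Λ)
    (t₀ t₁ c ν H : ℝ) (h0 : α ≤ t₀) (h01 : t₀ < t₁) (h1 : t₁ ≤ β) (hc : c ∈ Set.Icc t₀ t₁)
    (hH : 0 < H)
    (hν : 2 * (L * Λ * (t₁ - t₀)) ≤ ν)
    (hR : ∀ τ ∈ Set.Icc t₀ t₁, R τ + L * Λ * (t₁ - t₀) + ν ≤ H)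
    (x : E3) (hx : x ∈ piece e a b p₀ L R w t₀ t₁) :
    projAlong (e + w c) x ∈ convexHull ℝ
      ({projAlong (e + w c) (p₀ - ν • (a + ((t₀ + t₁) / 2) • b)),
        projAlong (e + w c) ((p₀ - ν • (a + ((t₀ + t₁) / 2) • b)) + H • (a + t₁ • b)),
        projAlong (e + w c) ((p₀ - ν • (a + ((t₀ + t₁) / 2) • b)) + H • (a + t₀ • b))} : Set E3) := by
  obtain ⟨τ, hτ, ρ, hρ, s, hs, rfl⟩ := hx
  obtain ⟨I₀, I₁, hI, hI0, hI1, hI2⟩ := w_diff a b α β w lam hlam hw' Λ hΛ t₀ t₁ c τ h0 h1 hc hτ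
  have hcαβ : c ∈ Set.Icc α β := ⟨h0.trans hc.1, hc.2.trans h1⟩
  have hu : e + w c ≠ 0 := axis_ne_zero e (w c) he (hw c hcαβ)
  have hD : 0 < t₁ - t₀ := by linarith
  have hΛ0 : 0 ≤ Λ := le_trans (abs_nonneg _) (hΛ c hcαβ)
  set V := p₀ - ν • (a + ((t₀ + t₁) / 2) • b) with hV
  -- bounds on the perturbation
  have b0 : |s * I₀| ≤ L * Λ * (t₁ - t₀) := by
    rw [abs_mul]
    calc |s| * |I₀| ≤ L * (Λ * (t₁ - t₀)) := mul_le_mul hs hI0 (abs_nonneg _) hL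
      _ = _ := by ring
  have b1 : |s * (I₁ - t₀ * I₀)| ≤ L * Λ * (t₁ - t₀) * (t₁ - t₀) := by
    rw [abs_mul]
    calc |s| * |I₁ - t₀ * I₀| ≤ L * (Λ * (t₁ - t₀) ^ 2) := mul_le_mul hs hI1 (abs_nonneg _) hL
      _ = _ := by ring
  have b2 : |s * (I₁ - t₁ * I₀)| ≤ L * Λ * (t₁ - t₀) * (t₁ - t₀) := by
    rw [abs_mul]
    calc |s| * |I₁ - t₁ * I₀| ≤ L * (Λ * (t₁ - t₀) ^ 2) := mul_le_mul hs hI2 (abs_nonneg _) hL
      _ = _ := by ring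
  have hνD : 2 * (L * Λ * (t₁ - t₀) * (t₁ - t₀)) ≤ ν * (t₁ - t₀) := by
    have := mul_le_mul_of_nonneg_right hν hD.le
    linarith
  obtain ⟨m0, m1, m2, k0, k1, k2, ks, hm⟩ := outer_mem a b V t₀ t₁ H (ρ + s * I₀ + ν)
    (ρ * τ + s * I₁ + ν * ((t₀ + t₁) / 2)) h01 hH
    (by
      have e1 : ρ * τ + s * I₁ + ν * ((t₀ + t₁) / 2) - t₀ * (ρ + s * I₀ + ν)
          = ρ * (τ - t₀) + s * (I₁ - t₀ * I₀) + ν * (t₁ - t₀) / 2 := by ring
      rw [e1]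
      have := mul_nonneg hρ.1 (sub_nonneg.mpr hτ.1)
      have := (abs_le.mp b1).1
      linarith)
    (by
      have e1 : t₁ * (ρ + s * I₀ + ν) - (ρ * τ + s * I₁ + ν * ((t₀ + t₁) / 2))
          = ρ * (t₁ - τ) - s * (I₁ - t₁ * I₀) + ν * (t₁ - t₀) / 2 := by ring
      rw [e1]
      have := mul_nonneg hρ.1 (sub_nonneg.mpr hτ.2)
      have := (abs_le.mp b2).2
      linarith)
    (by
      have := (abs_le.mp b0).2
      have := hR τ hτ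
      linarith [hρ.2])
  have hx : p₀ + ρ • (a + τ • b) + s • (e + w τ)
      = (V + (ρ + s * I₀ + ν) • a + (ρ * τ + s * I₁ + ν * ((t₀ + t₁) / 2)) • b) + s • (e + w c) := by
    have : w τ = w c + (I₀ • a + I₁ • b) := by rw [← hI]; abel
    rw [this, hV]; module
  have hP : projAlong (e + w c) (p₀ + ρ • (a + τ • b) + s • (e + w τ))
      = m0 • projAlong (e + w c) V + m1 • projAlong (e + w c) (V + H • (a + t₁ • b))
        + m2 • projAlong (e + w c) (V + H • (a + t₀ • b)) := by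
    rw [hx, projAlong_add _ _ (s • (e + w c)), projAlong_smul _ s, projAlong_self _ hu, smul_zero,
      add_zero, hm, projAlong_add _ _ (m2 • _), projAlong_add _ (m0 • _) (m1 • _),
      projAlong_smul _ m0, projAlong_smul _ m1, projAlong_smul _ m2]
  rw [hP]
  exact mem_convexHull_triple k0 k1 k2 ks

/-- The inner triangle lies in the shadow of a piece. -/
theorem piece_inner (e a b p₀ u : E3) (L : ℝ) (hL : 0 ≤ L)
    (R : ℝ → ℝ) (w : ℝ → E3) (t₀ t₁ r' : ℝ) (h01 : t₀ ≤ t₁) (hr : 0 ≤ r')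
    (hR : ∀ τ ∈ Set.Icc t₀ t₁, r' ≤ R τ) :
    convexHull ℝ ({projAlong u p₀, projAlong u (p₀ + r' • (a + t₁ • b)),
        projAlong u (p₀ + r' • (a + t₀ • b))} : Set E3) ⊆
      projAlong u '' piece e a b p₀ L R w t₀ t₁ := by
  intro x hx
  obtain ⟨m0, m1, m2, k0, k1, k2, ks, rfl⟩ := exists_of_mem_convexHull_triple hx
  obtain ⟨τ, hτ, ρ, hρ, h⟩ := inner_sub a b p₀ t₀ t₁ r' h01 hr m0 m1 m2 k0 k1 k2 ks
  refine ⟨p₀ + ρ • (a + τ • b), ⟨τ, hτ, ρ, ⟨hρ.1, hρ.2.trans (hR τ hτ)⟩, 0, by simpa using hL,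
    by simp⟩, ?_⟩
  rw [← h, projAlong_add _ _ (m2 • _), projAlong_add _ (m0 • _) (m1 • _),
    projAlong_smul _ m0, projAlong_smul _ m1, projAlong_smul _ m2]

end Crest.Agent.S0328Aux
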